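import Crest.Agent.Helper21.S0112.Tomita

/-!
# S0112, package C (continued): C2, C3 (KMS identity), C4

Instead of cut-offs `χ e^{u/2}`, `χ e^{u}` we use the explicit bounded continuous functions
`hexp R u = exp (min (u/2) ((3R - 2u)/2))` and `fexp R u = exp (min u ((3R - u)/2))`, which equal
`e^{u/2}` resp. `e^{u}` on `u ≤ R` and satisfy `fexp R = hexp R · e^{u/2}` everywhere.
-/

open Crest.OpAlg
open scoped InnerProductSpace ComplexConjugate

namespace Crest.Agent.Helper21.S0112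

variable {H : Type*} [NormedAddCommGroup H] [InnerProductSpace ℂ H] [CompleteSpace H]

/-- `u ↦ exp (min (u/2) ((3R - 2u)/2))`: equals `e^{u/2}` for `u ≤ R`, bounded by `e^{R/2}`. -/
noncomputable def hexp (R : ℝ) : BoundedContinuousFunction ℝ ℂ :=
  ofReal (fun u => Real.exp (min (u / 2) ((3 * R - 2 * u) / 2))) (by fun_prop) (Real.exp (R / 2))
    (fun u => by
      rw [abs_of_pos (Real.exp_pos _)]
      refine Real.exp_le_exp.2 ?_
      rcases le_total u R with h | h
      · exact (min_le_left _ _).trans (by linarith)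
      · exact (min_le_right _ _).trans (by linarith))

/-- `u ↦ exp (min u ((3R - u)/2))`: equals `e^{u}` for `u ≤ R`, bounded by `e^{R}`. -/
noncomputable def fexp (R : ℝ) : BoundedContinuousFunction ℝ ℂ :=
  ofReal (fun u => Real.exp (min u ((3 * R - u) / 2))) (by fun_prop) (Real.exp R)
    (fun u => by
      rw [abs_of_pos (Real.exp_pos _)]
      refine Real.exp_le_exp.2 ?_
      rcases le_total u R with h | h
      · exact (min_le_left _ _).trans h
      · exact (min_le_right _ _).trans (by linarith))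

theorem hexp_apply (R u : ℝ) :
    hexp R u = ((Real.exp (min (u / 2) ((3 * R - 2 * u) / 2)) : ℝ) : ℂ) := rfl

theorem fexp_apply (R u : ℝ) :
    fexp R u = ((Real.exp (min u ((3 * R - u) / 2)) : ℝ) : ℂ) := rfl

theorem hexp_apply_of_le {R u : ℝ} (h : u ≤ R) : hexp R u = ((Real.exp (u / 2) : ℝ) : ℂ) := by
  rw [hexp_apply, min_eq_left (by linarith)]

theorem fexp_apply_of_le {R u : ℝ} (h : u ≤ R) : fexp R u = ((Real.exp u : ℝ) : ℂ) := by
  rw [fexp_apply, min_eq_left (by linarith)]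

theorem fexp_eq (R u : ℝ) : fexp R u = hexp R u * ((Real.exp (u / 2) : ℝ) : ℂ) := by
  rw [fexp_apply, hexp_apply, ← Complex.ofReal_mul, ← Real.exp_add, ← min_add_add_right]
  congr 3 <;> ring

theorem norm_hexp_le (R : ℝ) : ‖hexp R‖ ≤ Real.exp (R / 2) :=
  norm_ofReal_le _ _ _ _ (Real.exp_pos _).le

theorem norm_fexp_le (R : ℝ) : ‖fexp R‖ ≤ Real.exp R :=
  norm_ofReal_le _ _ _ _ (Real.exp_pos _).le

theorem star_hexp (R : ℝ) : star (hexp R) = hexp R := star_ofReal _ _ _ _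

theorem star_fexp (R : ℝ) : star (fexp R) = fexp R := star_ofReal _ _ _ _

/-- A compactly supported bounded continuous function times `e^{u/2}` is bounded continuous. -/
theorem exists_mul_exp_half (f : BoundedContinuousFunction ℝ ℂ)
    (hf : HasCompactSupport (f : ℝ → ℂ)) :
    ∃ g : BoundedContinuousFunction ℝ ℂ, ∀ u : ℝ, g u = f u * ((Real.exp (u / 2) : ℝ) : ℂ) := by
  have hc : Continuous (fun u : ℝ => f u * ((Real.exp (u / 2) : ℝ) : ℂ)) := by
    have := f.continuous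
    fun_prop
  have hs : HasCompactSupport (fun u : ℝ => f u * ((Real.exp (u / 2) : ℝ) : ℂ)) :=
    hf.mul_right (f' := fun u : ℝ => ((Real.exp (u / 2) : ℝ) : ℂ))
  obtain ⟨C, hC⟩ := hc.bounded_above_of_compact_support hs
  exact ⟨BoundedContinuousFunction.ofNormedAddCommGroup _ hc C hC, fun u => rfl⟩

/-- **C2.** If `a ∈ M` and `a⋆ξ` has spectral support in `(-∞, R]`, then
`J(aξ) = e^{D/2}(a⋆ξ)`, the right-hand side computed with the bounded function `hexp R`. -/
theorem J_apply_vac (S : ModularDatum H) {a : H →L[ℂ] H} (ha : a ∈ S.M) {R : ℝ}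
    (h : S.D.SupportedIn (Set.Iic R) (star a S.vac)) :
    S.J (a S.vac) = S.D.apply (hexp R) (star a S.vac) := by
  rw [← sub_eq_zero]
  apply eq_zero_of_forall_compact S.D
  intro f hf
  obtain ⟨g, hg⟩ := exists_mul_exp_half f hf
  have hT := halfExp_of_mem S (star_mem ha)
  rw [star_star, halfExp_iff] at hT
  have h1 : S.D.apply f (S.J (a S.vac)) = S.D.apply g (star a S.vac) := hT f g hg
  have h2 : S.D.apply g (star a S.vac) = S.D.apply (f * hexp R) (star a S.vac) :=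
    apply_congr_of_supportedIn S.D h (fun u hu => by
      simp only [BoundedContinuousFunction.coe_mul, Pi.mul_apply]
      rw [hg u, hexp_apply_of_le hu])
  rw [map_sub, h1, h2, apply_apply, sub_self]

/-- **C2, norm form.** `‖aξ‖ ≤ e^{R/2} ‖a⋆ξ‖` when `a⋆ξ` is supported in `(-∞, R]`. -/
theorem norm_apply_vac_le (S : ModularDatum H) {a : H →L[ℂ] H} (ha : a ∈ S.M) {R : ℝ}
    (h : S.D.SupportedIn (Set.Iic R) (star a S.vac)) :
    ‖a S.vac‖ ≤ Real.exp (R / 2) * ‖star a S.vac‖ := by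
  rw [← norm_J S (a S.vac), J_apply_vac S ha h]
  exact (norm_apply_apply_le _ _ _).trans
    (mul_le_mul_of_nonneg_right (norm_hexp_le R) (norm_nonneg _))

/-- **C2, symmetric norm form.** `‖a⋆ξ‖ ≤ e^{R/2} ‖aξ‖` when `aξ` is supported in `(-∞, R]`. -/
theorem norm_star_apply_vac_le (S : ModularDatum H) {a : H →L[ℂ] H} (ha : a ∈ S.M) {R : ℝ}
    (h : S.D.SupportedIn (Set.Iic R) (a S.vac)) :
    ‖star a S.vac‖ ≤ Real.exp (R / 2) * ‖a S.vac‖ := by
  have h' := norm_apply_vac_le S (star_mem ha) (R := R) (by rwa [star_star])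
  rwa [star_star] at h'

/-- The vector `z_a = e^{D}(a⋆ξ)` ("`Δ a⋆ξ`"), computed with the bounded function `fexp R`. -/
noncomputable def zvec (S : ModularDatum H) (a : H →L[ℂ] H) (R : ℝ) : H :=
  S.D.apply (fexp R) (star a S.vac)

/-- The vector `w_a = a z_a`. -/
noncomputable def wvec (S : ModularDatum H) (a : H →L[ℂ] H) (R : ℝ) : H :=
  a (zvec S a R)

theorem zvec_def (S : ModularDatum H) (a : H →L[ℂ] H) (R : ℝ) :
    zvec S a R = S.D.apply (fexp R) (star a S.vac) := rfl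

theorem wvec_def (S : ModularDatum H) (a : H →L[ℂ] H) (R : ℝ) :
    wvec S a R = a (S.D.apply (fexp R) (star a S.vac)) := rfl

/-- **C3 (KMS identity).** For `a, y ∈ M` with `a⋆ξ` supported in `(-∞, R]`:
`⟪y⋆ξ, aξ⟫ = ⟪z_a, yξ⟫`. -/
theorem kms (S : ModularDatum H) {a y : H →L[ℂ] H} (ha : a ∈ S.M) (hy : y ∈ S.M) {R : ℝ}
    (h : S.D.SupportedIn (Set.Iic R) (star a S.vac)) :
    ⟪star y S.vac, a S.vac⟫_ℂ = ⟪zvec S a R, y S.vac⟫_ℂ := by
  have hT := halfExp_of_mem S hy
  rw [halfExp_iff] at hT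
  have h1 : S.D.apply (hexp R) (S.J (star y S.vac)) = S.D.apply (fexp R) (y S.vac) :=
    hT _ _ (fexp_eq R)
  have h2 := inner_apply_left S.D (hexp R) (star a S.vac) (S.J (star y S.vac))
  rw [star_hexp] at h2
  have h3 := inner_apply_left S.D (fexp R) (star a S.vac) (y S.vac)
  rw [star_fexp] at h3
  calc ⟪star y S.vac, a S.vac⟫_ℂ = ⟪S.J (a S.vac), S.J (star y S.vac)⟫_ℂ :=
        (inner_J_J S _ _).symm
    _ = ⟪S.D.apply (hexp R) (star a S.vac), S.J (star y S.vac)⟫_ℂ := by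
        rw [J_apply_vac S ha h]
    _ = ⟪star a S.vac, S.D.apply (hexp R) (S.J (star y S.vac))⟫_ℂ := h2
    _ = ⟪star a S.vac, S.D.apply (fexp R) (y S.vac)⟫_ℂ := by rw [h1]
    _ = ⟪zvec S a R, y S.vac⟫_ℂ := h3.symm

/-- **C4.** For `a, r ∈ M`, `a⋆ξ` supported in `(-∞, R]` and `x = σ_t(a)` (so `xξ = U_t aξ`):
`⟪xξ, r xξ⟫ = ⟪U_t w_a, rξ⟫`. -/
theorem kms_flow (S : ModularDatum H) {a r : H →L[ℂ] H} (ha : a ∈ S.M) (hr : r ∈ S.M) {R : ℝ}
    (h : S.D.SupportedIn (Set.Iic R) (star a S.vac)) (t : ℝ) :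
    ⟪S.D.wave t (a S.vac), r (S.D.wave t (a S.vac))⟫_ℂ =
      ⟪S.D.wave t (wvec S a R), r S.vac⟫_ℂ := by
  set x : H →L[ℂ] H := S.D.wave t * a * S.D.wave (-t) with hx
  have hxM : x ∈ S.M := S.flow_mem t a ha
  have hxv : x S.vac = S.D.wave t (a S.vac) := by
    show S.D.wave t (a (S.D.wave (-t) S.vac)) = _
    rw [wave_vac]
  have hsx : star x = S.D.wave t * star a * S.D.wave (-t) := by
    rw [hx, star_mul, star_mul, star_wave, star_wave, neg_neg, mul_assoc]
  have hsxv : star x S.vac = S.D.wave t (star a S.vac) := by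
    rw [hsx]
    show S.D.wave t (star a (S.D.wave (-t) S.vac)) = _
    rw [wave_vac]
  have hsupp : S.D.SupportedIn (Set.Iic R) (star x S.vac) := by
    rw [hsxv]; exact supportedIn_wave S.D h t
  have hy : star x * r ∈ S.M := mul_mem (star_mem hxM) hr
  have hk := kms S hxM hy hsupp
  have e1 : star (star x * r) S.vac = star r (x S.vac) := by
    rw [star_mul, star_star]; rfl
  have e2 : zvec S x R = S.D.wave t (zvec S a R) := by
    rw [zvec_def, zvec_def, hsxv, wave_apply_comm]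
  have e3 : (star x * r) S.vac = star x (r S.vac) := rfl
  have e4 : x (S.D.wave t (zvec S a R)) = S.D.wave t (wvec S a R) := by
    show S.D.wave t (a (S.D.wave (-t) (S.D.wave t (zvec S a R)))) = _
    rw [wave_neg_wave]; rfl
  rw [e1, e2, e3, inner_star_left, inner_star_right, hxv, e4] at hk
  exact hk

/-- **C4.** `⟪ξ, w_a⟫ = ‖aξ‖²`. -/
theorem inner_vac_wvec (S : ModularDatum H) {a : H →L[ℂ] H} (ha : a ∈ S.M) {R : ℝ}
    (h : S.D.SupportedIn (Set.Iic R) (star a S.vac)) :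
    ⟪S.vac, wvec S a R⟫_ℂ = ((‖a S.vac‖ ^ 2 : ℝ) : ℂ) := by
  have hk := kms S ha (star_mem ha) h
  rw [star_star] at hk
  have h1 : ⟪S.vac, wvec S a R⟫_ℂ = ⟪star a S.vac, zvec S a R⟫_ℂ :=
    (inner_star_left a _ _).symm
  rw [h1, ← inner_conj_symm, ← hk, inner_self_eq_norm_sq_to_K]
  simp

end Crest.Agent.Helper21.S0112
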