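import Mathlib
import Crest.Prelude.Def_ModularData

/-!
# S0112, package C: consequences of the Tomita field

`S : Crest.OpAlg.ModularDatum H`, `ξ = S.vac`, `f(D) = S.D.apply f`, `U_t = S.D.wave t`.

* C1  `apply_vac`, `wave_vac`, `flow_vac`
* C2  `J_apply_vac`, `norm_apply_vac_le`, `norm_star_apply_vac_le`
* C3  `kms`
* C4  `kms_flow`, `inner_vac_wvec`

Only Mathlib and the Prelude module `Def_ModularData` are used; the Prelude definitions are
accessed through the `rfl`-lemmas of the first section.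
-/

open Crest.OpAlg
open scoped InnerProductSpace ComplexConjugate

namespace Crest.Agent.Helper21.S0112

variable {H : Type*} [NormedAddCommGroup H] [InnerProductSpace ℂ H] [CompleteSpace H]

/-! ## `rfl`-lemmas for the Prelude definitions -/

theorem character_apply (t u : ℝ) :
    LineCalculus.character t u = Complex.exp (Complex.I * ((t * u : ℝ) : ℂ)) := rfl

theorem wave_def (D : LineCalculus H) (t : ℝ) :
    D.wave t = D.apply (LineCalculus.character t) := rfl

theorem supportedIn_iff (D : LineCalculus H) (K : Set ℝ) (x : H) :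
    D.SupportedIn K x ↔
      ∀ f : BoundedContinuousFunction ℝ ℂ, (∀ u ∈ K, f u = 0) → D.apply f x = 0 := Iff.rfl

theorem halfExp_iff (D : LineCalculus H) (x y : H) :
    D.HalfExp x y ↔ ∀ f g : BoundedContinuousFunction ℝ ℂ,
      (∀ u : ℝ, g u = f u * ((Real.exp (u / 2) : ℝ) : ℂ)) → D.apply f y = D.apply g x := Iff.rfl

theorem flow_def (S : ModularDatum H) (t : ℝ) (a : H →L[ℂ] H) :
    S.flow t a = S.D.wave t * a * S.D.wave (-t) := rfl

/-! ## Local calculus toolkit -/

theorem norm_apply_le (D : LineCalculus H) (f : BoundedContinuousFunction ℝ ℂ) :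
    ‖D.apply f‖ ≤ ‖f‖ :=
  NonUnitalStarAlgHom.norm_apply_le D.apply f

theorem norm_apply_apply_le (D : LineCalculus H) (f : BoundedContinuousFunction ℝ ℂ) (x : H) :
    ‖D.apply f x‖ ≤ ‖f‖ * ‖x‖ :=
  ((D.apply f).le_opNorm x).trans
    (mul_le_mul_of_nonneg_right (norm_apply_le D f) (norm_nonneg x))

theorem apply_apply (D : LineCalculus H) (f g : BoundedContinuousFunction ℝ ℂ) (x : H) :
    D.apply f (D.apply g x) = D.apply (f * g) x := by
  rw [map_mul]; rfl

theorem apply_comm (D : LineCalculus H) (f g : BoundedContinuousFunction ℝ ℂ) (x : H) :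
    D.apply f (D.apply g x) = D.apply g (D.apply f x) := by
  rw [apply_apply, apply_apply, mul_comm]

theorem inner_apply_left (D : LineCalculus H) (f : BoundedContinuousFunction ℝ ℂ) (x y : H) :
    ⟪D.apply (star f) x, y⟫_ℂ = ⟪x, D.apply f y⟫_ℂ := by
  rw [map_star, ContinuousLinearMap.star_eq_adjoint, ContinuousLinearMap.adjoint_inner_left]

theorem inner_apply_right (D : LineCalculus H) (f : BoundedContinuousFunction ℝ ℂ) (x y : H) :
    ⟪x, D.apply (star f) y⟫_ℂ = ⟪D.apply f x, y⟫_ℂ := by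
  rw [map_star, ContinuousLinearMap.star_eq_adjoint, ContinuousLinearMap.adjoint_inner_right]

theorem inner_star_left (a : H →L[ℂ] H) (x y : H) : ⟪star a x, y⟫_ℂ = ⟪x, a y⟫_ℂ := by
  rw [ContinuousLinearMap.star_eq_adjoint, ContinuousLinearMap.adjoint_inner_left]

theorem inner_star_right (a : H →L[ℂ] H) (x y : H) : ⟪x, star a y⟫_ℂ = ⟪a x, y⟫_ℂ := by
  rw [ContinuousLinearMap.star_eq_adjoint, ContinuousLinearMap.adjoint_inner_right]

theorem character_zero : LineCalculus.character 0 = 1 := by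
  ext u
  simp [character_apply]

theorem character_add (s t : ℝ) :
    LineCalculus.character (s + t) = LineCalculus.character s * LineCalculus.character t := by
  ext u
  simp only [character_apply, BoundedContinuousFunction.coe_mul, Pi.mul_apply]
  rw [← Complex.exp_add]
  congr 1
  push_cast
  ring

theorem star_character (t : ℝ) :
    star (LineCalculus.character t) = LineCalculus.character (-t) := by
  ext u
  simp only [BoundedContinuousFunction.star_apply, character_apply]
  rw [Complex.star_def, ← Complex.exp_conj]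
  congr 1
  simp

theorem wave_zero (D : LineCalculus H) : D.wave 0 = 1 := by
  rw [wave_def, character_zero, map_one]

theorem wave_add (D : LineCalculus H) (s t : ℝ) : D.wave (s + t) = D.wave s * D.wave t := by
  rw [wave_def, wave_def, wave_def, character_add, map_mul]

theorem wave_neg_wave (D : LineCalculus H) (t : ℝ) (x : H) : D.wave (-t) (D.wave t x) = x := by
  have h := wave_add D (-t) t
  rw [neg_add_cancel, wave_zero] at h
  have h2 := congrArg (fun A : H →L[ℂ] H => A x) h
  simpa using h2.symm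

theorem wave_wave_neg (D : LineCalculus H) (t : ℝ) (x : H) : D.wave t (D.wave (-t) x) = x := by
  have h := wave_neg_wave D (-t) x
  rwa [neg_neg] at h

theorem star_wave (D : LineCalculus H) (t : ℝ) : star (D.wave t) = D.wave (-t) := by
  rw [wave_def, wave_def, ← map_star, star_character]

theorem wave_apply_comm (D : LineCalculus H) (t : ℝ) (f : BoundedContinuousFunction ℝ ℂ) (x : H) :
    D.wave t (D.apply f x) = D.apply f (D.wave t x) := by
  rw [wave_def]; exact apply_comm D _ _ x

theorem norm_wave (D : LineCalculus H) (t : ℝ) (x : H) : ‖D.wave t x‖ = ‖x‖ := by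
  have h : ⟪D.wave t x, D.wave t x⟫_ℂ = ⟪x, x⟫_ℂ := by
    rw [← inner_star_left, star_wave, wave_neg_wave]
  have h3 : ‖D.wave t x‖ ^ 2 = ‖x‖ ^ 2 := by
    have h2 := congrArg RCLike.re h
    rwa [inner_self_eq_norm_sq, inner_self_eq_norm_sq] at h2
  exact (sq_eq_sq₀ (norm_nonneg _) (norm_nonneg _)).1 h3

theorem supportedIn_mono (D : LineCalculus H) {K K' : Set ℝ} (hK : K ⊆ K') {x : H}
    (hx : D.SupportedIn K x) : D.SupportedIn K' x := by
  rw [supportedIn_iff] at hx ⊢
  exact fun f hf => hx f (fun u hu => hf u (hK hu))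

theorem supportedIn_apply (D : LineCalculus H) {K : Set ℝ} {x : H}
    (hx : D.SupportedIn K x) (g : BoundedContinuousFunction ℝ ℂ) :
    D.SupportedIn K (D.apply g x) := by
  rw [supportedIn_iff] at hx ⊢
  intro f hf
  rw [apply_comm, hx f hf, map_zero]

theorem supportedIn_wave (D : LineCalculus H) {K : Set ℝ} {x : H}
    (hx : D.SupportedIn K x) (t : ℝ) : D.SupportedIn K (D.wave t x) := by
  rw [wave_def]; exact supportedIn_apply D hx _

/-- Two functions that agree on `K` act in the same way on the spectral subspace of `K`. -/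
theorem apply_congr_of_supportedIn (D : LineCalculus H) {K : Set ℝ} {x : H}
    (hx : D.SupportedIn K x) {f g : BoundedContinuousFunction ℝ ℂ}
    (hfg : ∀ u ∈ K, f u = g u) : D.apply f x = D.apply g x := by
  rw [supportedIn_iff] at hx
  have h := hx (f - g) (fun u hu => by simp [hfg u hu])
  have h' : D.apply f x - D.apply g x = 0 := by simpa using h
  exact sub_eq_zero.1 h'

/-- A vector annihilated by all compactly supported functions of `D` is zero. -/
theorem eq_zero_of_forall_compact (D : LineCalculus H) (x : H)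
    (h : ∀ f : BoundedContinuousFunction ℝ ℂ, HasCompactSupport (f : ℝ → ℂ) → D.apply f x = 0) :
    x = 0 := by
  by_contra hx
  obtain ⟨f, hf, hlt⟩ := D.window x ‖x‖ (norm_pos_iff.2 hx)
  rw [h f hf, zero_sub, norm_neg] at hlt
  exact lt_irrefl _ hlt


/-! ## Real bounded continuous functions as elements of `C_b(ℝ, ℂ)` -/

/-- The bounded continuous complex function attached to a bounded continuous real function. -/
noncomputable def ofReal (r : ℝ → ℝ) (hr : Continuous r) (C : ℝ) (hC : ∀ u, |r u| ≤ C) :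
    BoundedContinuousFunction ℝ ℂ :=
  BoundedContinuousFunction.ofNormedAddCommGroup (fun u => ((r u : ℝ) : ℂ))
    (Complex.continuous_ofReal.comp hr) C
    (fun u => by rw [Complex.norm_real, Real.norm_eq_abs]; exact hC u)

@[simp] theorem ofReal_apply (r : ℝ → ℝ) (hr : Continuous r) (C : ℝ) (hC : ∀ u, |r u| ≤ C)
    (u : ℝ) : ofReal r hr C hC u = ((r u : ℝ) : ℂ) := rfl

theorem norm_ofReal_le (r : ℝ → ℝ) (hr : Continuous r) (C : ℝ) (hC : ∀ u, |r u| ≤ C)
    (hC0 : 0 ≤ C) : ‖ofReal r hr C hC‖ ≤ C :=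
  BoundedContinuousFunction.norm_ofNormedAddCommGroup_le _ hC0 _

theorem star_ofReal (r : ℝ → ℝ) (hr : Continuous r) (C : ℝ) (hC : ∀ u, |r u| ≤ C) :
    star (ofReal r hr C hC) = ofReal r hr C hC := by
  ext u
  simp

/-! ## The modular conjugation is anti-unitary -/

theorem inner_J_J (S : ModularDatum H) (x y : H) : ⟪S.J x, S.J y⟫_ℂ = ⟪y, x⟫_ℂ := by
  have hI' : ∀ z : H, S.J ((RCLike.I : ℂ) • z) = -((RCLike.I : ℂ) • S.J z) := by
    intro z; rw [map_smulₛₗ]; simp
  have n1 : ‖(RCLike.I : ℂ)‖ = 1 := by simp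
  have e1 : ‖S.J x + S.J y‖ = ‖y + x‖ := by
    rw [← map_add, LinearIsometryEquiv.norm_map, add_comm]
  have e2 : ‖S.J x - S.J y‖ = ‖y - x‖ := by
    rw [← map_sub, LinearIsometryEquiv.norm_map, norm_sub_rev]
  have e3 : ‖S.J x - (RCLike.I : ℂ) • S.J y‖ = ‖y - (RCLike.I : ℂ) • x‖ := by
    have h1 : S.J x - (RCLike.I : ℂ) • S.J y = S.J (x + (RCLike.I : ℂ) • y) := by
      rw [map_add, hI' y]; abel
    have h2 : y - (RCLike.I : ℂ) • x = (-(RCLike.I : ℂ)) • (x + (RCLike.I : ℂ) • y) := by
      rw [smul_add, smul_smul]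
      have : -(RCLike.I : ℂ) * RCLike.I = 1 := by simp
      rw [this, one_smul, neg_smul]; abel
    rw [h1, LinearIsometryEquiv.norm_map, h2, norm_smul, norm_neg, n1, one_mul]
  have e4 : ‖S.J x + (RCLike.I : ℂ) • S.J y‖ = ‖y + (RCLike.I : ℂ) • x‖ := by
    have h1 : S.J x + (RCLike.I : ℂ) • S.J y = S.J (x - (RCLike.I : ℂ) • y) := by
      rw [map_sub, hI' y]; abel
    have h2 : y + (RCLike.I : ℂ) • x = (RCLike.I : ℂ) • (x - (RCLike.I : ℂ) • y) := by
      rw [smul_sub, smul_smul]
      have : (RCLike.I : ℂ) * RCLike.I = -1 := by simp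
      rw [this, neg_one_smul]; abel
    rw [h1, LinearIsometryEquiv.norm_map, h2, norm_smul, n1, one_mul]
  rw [inner_eq_sum_norm_sq_div_four (𝕜 := ℂ) (S.J x) (S.J y),
    inner_eq_sum_norm_sq_div_four (𝕜 := ℂ) y x, e1, e2, e3, e4]

theorem norm_J (S : ModularDatum H) (x : H) : ‖S.J x‖ = ‖x‖ :=
  LinearIsometryEquiv.norm_map S.J x

/-! ## The Tomita field -/

/-- Every pair `(aξ, a⋆ξ)` with `a ∈ M` lies in the graph. -/
theorem halfExp_of_mem (S : ModularDatum H) {a : H →L[ℂ] H} (ha : a ∈ S.M) :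
    S.D.HalfExp (a S.vac) (S.J (star a S.vac)) := by
  have h1 : (a S.vac, star a S.vac) ∈ closure (Set.range fun a : S.M =>
      ((a : H →L[ℂ] H) S.vac, star (a : H →L[ℂ] H) S.vac)) :=
    subset_closure ⟨⟨a, ha⟩, rfl⟩
  rw [S.tomita] at h1
  exact h1

/-- On the graph, `⟪p₂, ξ⟫ = ⟪ξ, p₁⟫` (true on the generating pairs, closed condition). -/
theorem inner_vac_of_halfExp (S : ModularDatum H) {x y : H} (h : S.D.HalfExp x (S.J y)) :
    ⟪y, S.vac⟫_ℂ = ⟪S.vac, x⟫_ℂ := by
  have hmem : (x, y) ∈ {p : H × H | S.D.HalfExp p.1 (S.J p.2)} := h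
  rw [← S.tomita] at hmem
  have hclosed : IsClosed {p : H × H | ⟪p.2, S.vac⟫_ℂ = ⟪S.vac, p.1⟫_ℂ} :=
    isClosed_eq (by fun_prop) (by fun_prop)
  have hsub : (Set.range fun a : S.M =>
      ((a : H →L[ℂ] H) S.vac, star (a : H →L[ℂ] H) S.vac)) ⊆
      {p : H × H | ⟪p.2, S.vac⟫_ℂ = ⟪S.vac, p.1⟫_ℂ} := by
    rintro _ ⟨a, rfl⟩
    exact inner_star_left _ _ _
  exact closure_minimal hsub hclosed hmem


/-- Key identity behind C1: if `c`, `c·e^{u/2}` and `c·e^u` are bounded continuous, then
`c̄(D)ξ = (c̄·e^u)(D)ξ`. -/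
theorem apply_vac_eq_of_exp (S : ModularDatum H) (c c2 c3 : BoundedContinuousFunction ℝ ℂ)
    (h2 : ∀ u : ℝ, c2 u = c u * ((Real.exp (u / 2) : ℝ) : ℂ))
    (h3 : ∀ u : ℝ, c3 u = c u * ((Real.exp u : ℝ) : ℂ)) :
    S.D.apply (star c) S.vac = S.D.apply (star c3) S.vac := by
  have ha : S.D.HalfExp S.vac (S.J S.vac) := by
    have h := halfExp_of_mem S (one_mem S.M)
    simpa using h
  have hb : ∀ z : H, ⟪S.J S.vac, S.D.apply c2 z⟫_ℂ = ⟪S.vac, S.D.apply c z⟫_ℂ := by
    intro z
    have hz : S.D.HalfExp (S.D.apply c z) (S.J (S.J (S.D.apply c2 z))) := by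
      rw [S.J_J, halfExp_iff]
      intro f g hfg
      rw [apply_apply, apply_apply]
      congr 2
      ext u
      simp only [BoundedContinuousFunction.coe_mul, Pi.mul_apply]
      rw [h2 u, hfg u]; ring
    have h := inner_vac_of_halfExp S hz
    have h' := inner_J_J S (S.D.apply c2 z) (S.J S.vac)
    rw [S.J_J] at h'
    exact h'.symm.trans h
  have hc : S.D.apply (star c2) (S.J S.vac) = S.D.apply (star c) S.vac := by
    apply ext_inner_right ℂ
    intro z
    rw [inner_apply_left, inner_apply_left]; exact hb z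
  have hd : S.D.apply (star c2) (S.J S.vac) = S.D.apply (star c3) S.vac := by
    rw [halfExp_iff] at ha
    apply ha
    intro u
    simp only [BoundedContinuousFunction.star_apply]
    rw [h3 u, h2 u, star_mul', star_mul', Complex.star_def,
      Complex.conj_ofReal, Complex.conj_ofReal, mul_assoc, ← Complex.ofReal_mul, ← Real.exp_add]
    congr 3
    ring
  exact hc.symm.trans hd

/-- `u ↦ exp (-max u 0)`. -/
noncomputable def cA : BoundedContinuousFunction ℝ ℂ :=
  ofReal (fun u => Real.exp (-max u 0)) (by fun_prop) 1 (fun u => by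
    rw [abs_of_pos (Real.exp_pos _)]
    exact Real.exp_le_one_iff.2 (by simp))

/-- `u ↦ exp (u / 2 - max u 0)`. -/
noncomputable def cB : BoundedContinuousFunction ℝ ℂ :=
  ofReal (fun u => Real.exp (u / 2 - max u 0)) (by fun_prop) 1 (fun u => by
    rw [abs_of_pos (Real.exp_pos _)]
    refine Real.exp_le_one_iff.2 ?_
    rcases le_total u 0 with h | h
    · rw [max_eq_right h]; linarith
    · rw [max_eq_left h]; linarith)

/-- `u ↦ exp (min u 0)`. -/
noncomputable def cC : BoundedContinuousFunction ℝ ℂ :=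
  ofReal (fun u => Real.exp (min u 0)) (by fun_prop) 1 (fun u => by
    rw [abs_of_pos (Real.exp_pos _)]
    exact Real.exp_le_one_iff.2 (min_le_right _ _))

/-- The real function `τ(u) = exp (min u 0) - exp (-max u 0)`; it vanishes only at `0`. -/
noncomputable def tauR (u : ℝ) : ℝ := Real.exp (min u 0) - Real.exp (-max u 0)

theorem cC_sub_cA_apply (u : ℝ) : (cC - cA) u = ((tauR u : ℝ) : ℂ) := by
  simp [cC, cA, tauR]

theorem continuous_tauR : Continuous tauR := by
  unfold tauR; fun_prop

theorem abs_tauR_le_one (u : ℝ) : |tauR u| ≤ 1 := by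
  unfold tauR
  have h1 : 0 < Real.exp (min u 0) := Real.exp_pos _
  have h2 : 0 < Real.exp (-max u 0) := Real.exp_pos _
  have h3 : Real.exp (min u 0) ≤ 1 := Real.exp_le_one_iff.2 (min_le_right _ _)
  have h4 : Real.exp (-max u 0) ≤ 1 := Real.exp_le_one_iff.2 (by simp)
  rw [abs_le]; constructor <;> linarith

theorem tauR_sq_ge {r u : ℝ} (hr : 0 ≤ r) (hu : r ≤ |u|) :
    (1 - Real.exp (-r)) ^ 2 ≤ tauR u ^ 2 := by
  have hr1 : 0 ≤ 1 - Real.exp (-r) := by
    have : Real.exp (-r) ≤ 1 := Real.exp_le_one_iff.2 (by linarith)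
    linarith
  unfold tauR
  rcases le_total u 0 with h | h
  · rw [min_eq_left h, max_eq_right h, neg_zero, Real.exp_zero]
    have hu' : r ≤ -u := by rwa [abs_of_nonpos h] at hu
    have : Real.exp u ≤ Real.exp (-r) := Real.exp_le_exp.2 (by linarith)
    nlinarith
  · rw [min_eq_right h, max_eq_left h, Real.exp_zero]
    have hu' : r ≤ u := by rwa [abs_of_nonneg h] at hu
    have : Real.exp (-u) ≤ Real.exp (-r) := Real.exp_le_exp.2 (by linarith)
    nlinarith

theorem tau_vac (S : ModularDatum H) : S.D.apply (cC - cA) S.vac = 0 := by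
  have h := apply_vac_eq_of_exp S cA cB cC
    (fun u => by
      simp only [cA, cB, ofReal_apply]
      rw [← Complex.ofReal_mul, ← Real.exp_add]; congr 2; ring)
    (fun u => by
      simp only [cA, cC, ofReal_apply]
      rw [← Complex.ofReal_mul, ← Real.exp_add]; congr 2
      linarith [min_add_max u 0])
  rw [show star cA = cA from star_ofReal _ _ _ _, show star cC = cC from star_ofReal _ _ _ _] at h
  rw [map_sub]
  show S.D.apply cC S.vac - S.D.apply cA S.vac = 0
  rw [h, sub_self]


/-- C1, first form: the vacuum is in the spectral subspace of `{0}`. -/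
theorem apply_vac_eq_zero (S : ModularDatum H) (g : BoundedContinuousFunction ℝ ℂ)
    (hg : g 0 = 0) : S.D.apply g S.vac = 0 := by
  rw [← norm_le_zero_iff]
  refine le_of_forall_pos_le_add fun η hη => ?_
  rw [zero_add]
  -- continuity of `g` at `0`
  have hcont : ContinuousAt (fun u => ‖g u‖) 0 := (g.continuous.norm).continuousAt
  have hev : ∀ᶠ u in nhds (0 : ℝ), ‖g u‖ < η := by
    have h0 : ‖g 0‖ < η := by rw [hg, norm_zero]; exact hη
    exact hcont.eventually (gt_mem_nhds h0)
  obtain ⟨r, hr, hball⟩ := Metric.eventually_nhds_iff.1 hev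
  set κ : ℝ := (1 - Real.exp (-r)) ^ 2 with hκ
  have hκpos : 0 < κ := by
    have : Real.exp (-r) < 1 := Real.exp_lt_one_iff.2 (by linarith)
    rw [hκ]; exact pow_pos (by linarith) 2
  set ε : ℝ := η * κ / (‖g‖ + 1) with hε
  have hgn : 0 < ‖g‖ + 1 := by positivity
  have hεpos : 0 < ε := by rw [hε]; positivity
  have hden : ∀ u : ℝ, 0 < tauR u ^ 2 + ε := fun u => by positivity
  -- the two auxiliary functions
  let qf : BoundedContinuousFunction ℝ ℂ :=
    ofReal (fun u => ε / (tauR u ^ 2 + ε))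
      (continuous_const.div (by have := continuous_tauR; fun_prop) (fun u => (hden u).ne')) 1
      (fun u => by
        rw [abs_of_pos (div_pos hεpos (hden u)), div_le_one (hden u)]
        nlinarith [sq_nonneg (tauR u)])
  let pf : BoundedContinuousFunction ℝ ℂ :=
    ofReal (fun u => tauR u / (tauR u ^ 2 + ε))
      (continuous_tauR.div (by have := continuous_tauR; fun_prop) (fun u => (hden u).ne')) (1 / ε)
      (fun u => by
        rw [abs_div, abs_of_pos (hden u)]
        have h1 := abs_tauR_le_one u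
        have h2 : ε ≤ tauR u ^ 2 + ε := by nlinarith [sq_nonneg (tauR u)]
        exact div_le_div₀ zero_le_one h1 hεpos h2)
  have hdecomp : g = (g * pf) * (cC - cA) + g * qf := by
    ext u
    simp only [BoundedContinuousFunction.coe_add, BoundedContinuousFunction.coe_mul, Pi.add_apply,
      Pi.mul_apply, cC_sub_cA_apply]
    simp only [pf, qf, ofReal_apply]
    have hne : ((tauR u ^ 2 + ε : ℝ) : ℂ) ≠ 0 := by exact_mod_cast (hden u).ne'
    push_cast at hne ⊢
    field_simp
  have hkill : S.D.apply g S.vac = S.D.apply (g * qf) S.vac := by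
    conv_lhs => rw [hdecomp]
    rw [map_add]
    show S.D.apply (g * pf * (cC - cA)) S.vac + S.D.apply (g * qf) S.vac = _
    rw [← apply_apply, tau_vac, map_zero, zero_add]
  have hnorm : ‖g * qf‖ ≤ η := by
    rw [BoundedContinuousFunction.norm_le hη.le]
    intro u
    simp only [BoundedContinuousFunction.coe_mul, Pi.mul_apply, qf, ofReal_apply]
    rw [norm_mul, Complex.norm_real, Real.norm_eq_abs, abs_of_pos (div_pos hεpos (hden u))]
    by_cases hu : |u| < r
    · have h1 : ‖g u‖ < η := hball (by simpa [Real.dist_eq] using hu)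
      have h2 : ε / (tauR u ^ 2 + ε) ≤ 1 := by
        rw [div_le_one (hden u)]; nlinarith [sq_nonneg (tauR u)]
      calc ‖g u‖ * (ε / (tauR u ^ 2 + ε)) ≤ ‖g u‖ * 1 :=
            mul_le_mul_of_nonneg_left h2 (norm_nonneg _)
        _ ≤ η := by rw [mul_one]; exact h1.le
    · have hu' : r ≤ |u| := not_lt.1 hu
      have h1 : κ ≤ tauR u ^ 2 := tauR_sq_ge hr.le hu'
      have h2 : ε / (tauR u ^ 2 + ε) ≤ ε / κ :=
        div_le_div_of_nonneg_left hεpos.le hκpos (by linarith)
      have h3 : ‖g u‖ ≤ ‖g‖ := g.norm_coe_le_norm u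
      have h4 : ε / κ = η / (‖g‖ + 1) := by
        rw [hε]; field_simp
      calc ‖g u‖ * (ε / (tauR u ^ 2 + ε)) ≤ ‖g‖ * (ε / κ) :=
            mul_le_mul h3 h2 (div_nonneg hεpos.le (hden u).le) (norm_nonneg _)
        _ = η * (‖g‖ / (‖g‖ + 1)) := by rw [h4]; ring
        _ ≤ η * 1 := by
            refine mul_le_mul_of_nonneg_left ?_ hη.le
            rw [div_le_one hgn]; linarith
        _ = η := mul_one η
  rw [hkill]
  calc ‖S.D.apply (g * qf) S.vac‖ ≤ ‖g * qf‖ * ‖S.vac‖ := norm_apply_apply_le _ _ _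
    _ ≤ η := by rw [S.norm_vac, mul_one]; exact hnorm

/-- **C1.** `f(D)ξ = f(0)ξ` for every bounded continuous `f`. -/
theorem apply_vac (S : ModularDatum H) (f : BoundedContinuousFunction ℝ ℂ) :
    S.D.apply f S.vac = f 0 • S.vac := by
  have h := apply_vac_eq_zero S (f - algebraMap ℂ (BoundedContinuousFunction ℝ ℂ) (f 0))
    (by simp)
  rw [map_sub, AlgHomClass.commutes] at h
  have h' : S.D.apply f S.vac - f 0 • S.vac = 0 := by simpa [Algebra.algebraMap_eq_smul_one] using h
  exact sub_eq_zero.1 h'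

/-- **C1.** The vacuum is invariant under `exp(itD)`. -/
theorem wave_vac (S : ModularDatum H) (t : ℝ) : S.D.wave t S.vac = S.vac := by
  rw [wave_def, apply_vac, character_apply]
  simp

/-- **C1.** `σ_t(a)ξ = U_t(aξ)`. -/
theorem flow_vac (S : ModularDatum H) (t : ℝ) (a : H →L[ℂ] H) :
    S.flow t a S.vac = S.D.wave t (a S.vac) := by
  rw [flow_def]
  show S.D.wave t (a (S.D.wave (-t) S.vac)) = _
  rw [wave_vac]

theorem vac_supportedIn (S : ModularDatum H) {K : Set ℝ} (hK : (0 : ℝ) ∈ K) :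
    S.D.SupportedIn K S.vac := by
  rw [supportedIn_iff]
  intro f hf
  rw [apply_vac, hf 0 hK, zero_smul]

end Crest.Agent.Helper21.S0112
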